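import Mathlib

set_option linter.all false

/-! Row R4: transitivity of the unitary group on unitary pairs. -/

namespace Vale.Agent.P220.R2.H311

/-- a unitary map which carries the unit vector `a` to the unit vector `b` and fixes the vectors
orthogonal to the complex line of `a - b` -/
theorem exists_move {V : Type} [NormedAddCommGroup V] [InnerProductSpace ℝ V]
    [FiniteDimensional ℝ V] {J : V ≃ₗᵢ[ℝ] V} (hJ : ∀ x, J (J x) = -x) {a b : V} (ha : ‖a‖ = 1)
    (hb : ‖b‖ = 1) :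
    ∃ g : V ≃ₗᵢ[ℝ] V, (∀ x, g (J x) = J (g x)) ∧ g a = b ∧
      ∀ x, inner ℝ (a - b) x = (0 : ℝ) → inner ℝ (J (a - b)) x = (0 : ℝ) → g x = x := by
  by_cases hab : a = b
  · subst hab
    exact ⟨LinearIsometryEquiv.refl ℝ V, fun _ => rfl, rfl, fun _ _ _ => rfl⟩
  have hs : ∀ x y : V, inner ℝ (J x) y = -inner ℝ x (J y) := by
    intro x y
    have h1 := J.inner_map_map x (J y)
    rw [hJ, inner_neg_right] at h1
    linarith
  have h0 : ∀ x : V, inner ℝ x (J x) = (0 : ℝ) := by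
    intro x
    have h1 := hs x x
    rw [real_inner_comm] at h1
    linarith
  obtain ⟨w, hw⟩ : ∃ w, w = a - b := ⟨_, rfl⟩
  obtain ⟨p, hp⟩ : ∃ p : ℝ, p = inner ℝ w a := ⟨_, rfl⟩
  obtain ⟨r, hr⟩ : ∃ r : ℝ, r = inner ℝ (J w) a := ⟨_, rfl⟩
  have hww : inner ℝ w w = 2 * p := by
    have h1 : inner ℝ a a = (1 : ℝ) := by rw [real_inner_self_eq_norm_sq, ha]; norm_num
    have h2 : inner ℝ b b = (1 : ℝ) := by rw [real_inner_self_eq_norm_sq, hb]; norm_num
    have h3 : inner ℝ b a = inner ℝ a b := real_inner_comm _ _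
    rw [hp, hw]
    simp only [inner_sub_left, inner_sub_right]
    rw [h1, h2, h3]
    ring
  have hpos : 0 < p := by
    have h1 : w ≠ 0 := by rw [hw]; exact sub_ne_zero.2 hab
    have h2 : (0 : ℝ) < inner ℝ w w := real_inner_self_pos.2 h1
    rw [hww] at h2
    linarith
  have hD : 0 < p ^ 2 + r ^ 2 := by positivity
  obtain ⟨α, hα⟩ : ∃ α : ℝ, α = p / (p ^ 2 + r ^ 2) := ⟨_, rfl⟩
  obtain ⟨β, hβ⟩ : ∃ β : ℝ, β = r / (p ^ 2 + r ^ 2) := ⟨_, rfl⟩
  have e1 : α * p + β * r = 1 := by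
    rw [hα, hβ]; field_simp
  have e2 : α * r - β * p = 0 := by
    rw [hα, hβ]; field_simp; ring
  have e3 : (α ^ 2 + β ^ 2) * (2 * p) = 2 * α := by
    rw [hα, hβ]; field_simp
  have hwJ : inner ℝ w (J w) = (0 : ℝ) := h0 w
  have hwJ' : inner ℝ (J w) w = (0 : ℝ) := by rw [real_inner_comm]; exact h0 w
  have hJJ : inner ℝ (J w) (J w) = 2 * p := by rw [J.inner_map_map, hww]
  let L : V →ₗ[ℝ] V :=
    { toFun := fun x => x - (α * inner ℝ w x + β * inner ℝ (J w) x) • w -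
        (α * inner ℝ (J w) x - β * inner ℝ w x) • J w
      map_add' := by
        intro x y
        simp only [inner_add_right]
        module
      map_smul' := by
        intro c x
        simp only [inner_smul_right, RingHom.id_apply]
        module }
  have hL : ∀ x, L x = x - (α * inner ℝ w x + β * inner ℝ (J w) x) • w -
        (α * inner ℝ (J w) x - β * inner ℝ w x) • J w := fun _ => rfl
  have hn : ∀ x, ‖L x‖ = ‖x‖ := by
    intro x
    have h1 : inner ℝ (L x) (L x) = (inner ℝ x x : ℝ) := by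
      have c1 : inner ℝ x w = (inner ℝ w x : ℝ) := real_inner_comm _ _
      have c2 : inner ℝ x (J w) = (inner ℝ (J w) x : ℝ) := real_inner_comm _ _
      rw [hL]
      simp only [inner_sub_left, inner_sub_right, real_inner_smul_left, real_inner_smul_right, c1,
        c2, hwJ, hwJ', hJJ, hww]
      linear_combination ((inner ℝ w x : ℝ) ^ 2 + (inner ℝ (J w) x : ℝ) ^ 2) * e3
    rw [real_inner_self_eq_norm_sq, real_inner_self_eq_norm_sq] at h1
    exact (sq_eq_sq₀ (norm_nonneg _) (norm_nonneg _)).1 h1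
  let g0 : V →ₗᵢ[ℝ] V := ⟨L, hn⟩
  refine ⟨g0.toLinearIsometryEquiv rfl, ?_, ?_, ?_⟩
  · intro x
    change L (J x) = J (L x)
    have c1 : inner ℝ w (J x) = -(inner ℝ (J w) x : ℝ) := by rw [hs]; ring
    have c2 : inner ℝ (J w) (J x) = (inner ℝ w x : ℝ) := J.inner_map_map w x
    rw [hL, hL, c1, c2, map_sub, map_sub, map_smul, map_smul, hJ]
    module
  · change L a = b
    rw [hL, ← hp, ← hr, e1, e2, hw]
    module
  · intro x h1 h2
    change L x = x
    rw [← hw] at h1 h2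
    rw [hL, h1, h2]
    module

/-- ROW R4 -/
theorem row_U {V : Type} [NormedAddCommGroup V] [InnerProductSpace ℝ V] [FiniteDimensional ℝ V]
    {J : V ≃ₗᵢ[ℝ] V} (hJ : ∀ x, J (J x) = -x) {e u e' u' : V}
    (he : ‖e‖ = 1) (hu : ‖u‖ = 1) (heu : inner ℝ e u = (0 : ℝ)) (heJ : inner ℝ e (J u) = (0 : ℝ))
    (he' : ‖e'‖ = 1) (hu' : ‖u'‖ = 1) (heu' : inner ℝ e' u' = (0 : ℝ))
    (heJ' : inner ℝ e' (J u') = (0 : ℝ)) :
    ∃ g : V ≃ₗᵢ[ℝ] V, (∀ x, g (J x) = J (g x)) ∧ g e' = e ∧ g u' = u := by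
  obtain ⟨g1, hg1, h1, -⟩ := exists_move hJ he' he
  have hu1 : ‖g1 u'‖ = 1 := by rw [g1.norm_map, hu']
  obtain ⟨g2, hg2, h2, h3⟩ := exists_move hJ hu1 hu
  refine ⟨g1.trans g2, ?_, ?_, ?_⟩
  · intro x
    change g2 (g1 (J x)) = J (g2 (g1 x))
    rw [hg1, hg2]
  · change g2 (g1 e') = e
    rw [h1]
    have a1 : inner ℝ (g1 u') e = (0 : ℝ) := by
      rw [← h1, g1.inner_map_map, real_inner_comm, heu']
    have a2 : inner ℝ (J (g1 u')) e = (0 : ℝ) := by
      rw [← h1, ← hg1, g1.inner_map_map, real_inner_comm, heJ']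
    apply h3
    · rw [inner_sub_left, a1, real_inner_comm, heu, sub_zero]
    · rw [map_sub, inner_sub_left, a2, real_inner_comm, heJ, sub_zero]
  · change g2 (g1 u') = u
    exact h2

end Vale.Agent.P220.R2.H311
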